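import Vale.Agent.P088.H924.P.Defs
import Vale.Agent.P088.H641.BHad

/-!
# P088, row P_VN: zero Cauchy data and the equation on one side: all orders vanish
-/

open MeasureTheory Set Filter Topology
open scoped ContDiff Matrix

noncomputable section

namespace Vale.Agent.P088.LR.P.H231

open Vale.Agent.P088.LR Vale.Agent.P088.LR.B Vale.Agent.P088.LR.U Vale.Agent.P088.LR.H158

variable {n N : ℕ}

/-- vector valued division -/
theorem hadv {ρ : V n → ℝ} (hρ : ContDiff ℝ ∞ ρ) (hd : ∀ x, ρ x = 0 → fderiv ℝ ρ x ≠ 0)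
    {w : V n → Fin N → ℂ} (hw : ContDiff ℝ ∞ w) (h0 : ∀ x, ρ x = 0 → w x = 0) :
    ∃ h : V n → Fin N → ℂ, ContDiff ℝ ∞ h ∧ ∀ x, w x = ρ x • h x := by
  have hre : ∀ a, ∃ g : V n → ℝ, ContDiff ℝ ∞ g ∧ ∀ x, (w x a).re = ρ x * g x := fun a =>
    B.H641.had hρ hd (Complex.reCLM.contDiff.comp ((contDiff_pi.1 hw) a)) fun x hx => by
      show (w x a).re = 0
      rw [h0 x hx]; simp
  have him : ∀ a, ∃ g : V n → ℝ, ContDiff ℝ ∞ g ∧ ∀ x, (w x a).im = ρ x * g x := fun a =>
    B.H641.had hρ hd (Complex.imCLM.contDiff.comp ((contDiff_pi.1 hw) a)) fun x hx => by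
      show (w x a).im = 0
      rw [h0 x hx]; simp
  choose g hg hge using hre
  choose k hk hke using him
  refine ⟨fun x a => (g a x : ℂ) + (k a x : ℂ) * Complex.I, ?_, fun x => ?_⟩
  · rw [contDiff_pi]
    intro a
    exact (Complex.ofRealCLM.contDiff.comp (hg a)).add
      ((Complex.ofRealCLM.contDiff.comp (hk a)).mul contDiff_const)
  · funext a
    apply Complex.ext
    · simp [hge a x]
    · simp [hke a x]

theorem pd_rsmul {φ : V n → ℝ} (hφ : ContDiff ℝ ∞ φ) {u : V n → Fin N → ℂ}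
    (hu : ContDiff ℝ ∞ u) (i : Fin n) (x : V n) :
    pd i (fun x => φ x • u x) x = pd i φ x • u x + φ x • pd i u x := by
  unfold pd
  have h := ((dfa hφ x).hasFDerivAt.smul (dfa hu x).hasFDerivAt).fderiv
  have h3 := congrArg (fun L : V n →L[ℝ] (Fin N → ℂ) => L (Pi.single i 1)) h
  refine Eq.trans h3 ?_
  simp [add_comm]

theorem cd_rsmul (A : Cn n N) {φ : V n → ℝ} (hφ : ContDiff ℝ ∞ φ) {u : V n → Fin N → ℂ}
    (hu : ContDiff ℝ ∞ u) (i : Fin n) (x : V n) :
    cd A i (fun x => φ x • u x) x = pd i φ x • u x + φ x • cd A i u x := by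
  unfold cd
  rw [pd_rsmul hφ hu, Matrix.mulVec_smul, smul_add]
  abel

theorem pd_pow {ρ : V n → ℝ} (hρ : ContDiff ℝ ∞ ρ) (m : ℕ) (i : Fin n) (x : V n) :
    pd i (fun y => ρ y ^ (m + 1)) x = (m + 1) * ρ x ^ m * pd i ρ x := by
  unfold pd
  have h := ((hasDerivAt_pow (m + 1) (ρ x)).comp_hasFDerivAt x (dfa hρ x).hasFDerivAt).fderiv
  have h3 := congrArg (fun L : V n →L[ℝ] ℝ => L (Pi.single i 1)) h
  refine Eq.trans h3 ?_
  simp

/-- the coefficient in `cd A j (ρ ^ (k + 1) • h) = ρ ^ k • Kf` -/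
def Kf (ρ : V n → ℝ) (A : Cn n N) (k : ℕ) (h : V n → Fin N → ℂ) (j : Fin n) (x : V n) :
    Fin N → ℂ := (((k : ℝ) + 1) * pd j ρ x) • h x + ρ x • cd A j h x

theorem cd_pow {ρ : V n → ℝ} (hρ : ContDiff ℝ ∞ ρ) (A : Cn n N) (k : ℕ) {h : V n → Fin N → ℂ}
    (hh : ContDiff ℝ ∞ h) (j : Fin n) (x : V n) :
    cd A j (fun y => ρ y ^ (k + 1) • h y) x = ρ x ^ k • Kf ρ A k h j x := by
  rw [cd_rsmul A (hρ.pow (k + 1)) hh, pd_pow hρ, Kf, smul_add, smul_smul, smul_smul, pow_succ]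
  ring_nf

theorem contDiff_Kf {ρ : V n → ℝ} (hρ : ContDiff ℝ ∞ ρ) {A : Cn n N} (hA : SmU A) (k : ℕ)
    {h : V n → Fin N → ℂ} (hh : ContDiff ℝ ∞ h) (j : Fin n) : ContDiff ℝ ∞ (Kf ρ A k h j) :=
  ((contDiff_const.mul (contDiff_pd hρ j)).smul hh).add (hρ.smul (contDiff_cd hA hh j))

/-- the flux -/
def Lf (s : MF n) (ρ : V n → ℝ) (A : Cn n N) (k : ℕ) (h : V n → Fin N → ℂ) (i : Fin n) (x : V n) :
    Fin N → ℂ := ∑ j, (s x i j : ℂ) • Kf ρ A k h j x

theorem contDiff_Lf {s : MF n} (hs : SmM s) {ρ : V n → ℝ} (hρ : ContDiff ℝ ∞ ρ) {A : Cn n N}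
    (hA : SmU A) (k : ℕ) {h : V n → Fin N → ℂ} (hh : ContDiff ℝ ∞ h) (i : Fin n) :
    ContDiff ℝ ∞ (Lf s ρ A k h i) :=
  ContDiff.sum fun j _ => (Complex.ofRealCLM.contDiff.comp (hs i j)).smul (contDiff_Kf hρ hA k hh j)

/-- `lav (ρ ^ (k + 2) • h) = ρ ^ k • Qf` -/
def Qf (s : MF n) (ρ : V n → ℝ) (A : Cn n N) (k : ℕ) (h : V n → Fin N → ℂ) (x : V n) :
    Fin N → ℂ := ∑ i, Kf ρ A k (Lf s ρ A (k + 1) h i) i x

theorem lav_pow {s : MF n} (hs : SmM s) {ρ : V n → ℝ} (hρ : ContDiff ℝ ∞ ρ) {A : Cn n N}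
    (hA : SmU A) (k : ℕ) {h : V n → Fin N → ℂ} (hh : ContDiff ℝ ∞ h) (x : V n) :
    lav s A (fun y => ρ y ^ (k + 2) • h y) x = ρ x ^ k • Qf s ρ A k h x := by
  unfold lav Qf
  rw [Finset.smul_sum]
  refine Finset.sum_congr rfl fun i _ => ?_
  have h1 : (fun y => ∑ j, (s y i j : ℂ) • cd A j (fun y => ρ y ^ (k + 2) • h y) y) =
      fun y => ρ y ^ (k + 1) • Lf s ρ A (k + 1) h i y := by
    funext y
    unfold Lf
    rw [Finset.smul_sum]
    refine Finset.sum_congr rfl fun j _ => ?_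
    rw [cd_pow hρ A (k + 1) hh j y, smul_comm]
  rw [h1]
  exact cd_pow hρ A k (contDiff_Lf hs hρ hA (k + 1) hh i) i x

theorem contDiff_Qf {s : MF n} (hs : SmM s) {ρ : V n → ℝ} (hρ : ContDiff ℝ ∞ ρ) {A : Cn n N}
    (hA : SmU A) (k : ℕ) {h : V n → Fin N → ℂ} (hh : ContDiff ℝ ∞ h) :
    ContDiff ℝ ∞ (Qf s ρ A k h) :=
  ContDiff.sum fun i _ => contDiff_Kf hρ hA k (contDiff_Lf hs hρ hA (k + 1) hh i) i

theorem Qf_zero {s : MF n} {ρ : V n → ℝ} {A : Cn n N} (k : ℕ) {h : V n → Fin N → ℂ} {x : V n}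
    (hx : ρ x = 0) : Qf s ρ A k h x =
      ((((k : ℝ) + 1) * ((k : ℝ) + 2)) * ((fun i => pd i ρ x) ⬝ᵥ (s x *ᵥ fun i => pd i ρ x))) •
        h x := by
  unfold Qf Kf Lf Kf
  simp only [hx, zero_smul, add_zero]
  funext a
  simp only [Finset.sum_apply, Pi.smul_apply, Complex.real_smul, smul_eq_mul, dotProduct,
    Matrix.mulVec, Finset.mul_sum, Finset.sum_mul, Complex.ofReal_sum, Complex.ofReal_mul]
  refine Finset.sum_congr rfl fun i _ => Finset.sum_congr rfl fun j _ => ?_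
  push_cast
  ring

theorem cd_congr {A : Cn n N} {u v : V n → Fin N → ℂ} {B : Set (V n)} (hB : IsOpen B)
    (h : ∀ x ∈ B, u x = v x) {x : V n} (hx : x ∈ B) (i : Fin n) : cd A i u x = cd A i v x := by
  unfold cd
  rw [pd_congr hB h hx, h x hx]

theorem lav_congr {s : MF n} {A : Cn n N} {u v : V n → Fin N → ℂ} {B : Set (V n)} (hB : IsOpen B)
    (h : ∀ x ∈ B, u x = v x) {x : V n} (hx : x ∈ B) : lav s A u x = lav s A v x := by
  unfold lav
  exact Finset.sum_congr rfl fun i _ => cd_congr hB (fun y hy =>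
    Finset.sum_congr rfl fun j _ => by rw [cd_congr hB h hy]) hx i

theorem pd_ne {ρ : V n → ℝ} {x : V n} (hd : fderiv ℝ ρ x ≠ 0) : ∃ i, pd i ρ x ≠ 0 := by
  by_contra hc
  push Not at hc
  apply hd
  ext y
  have h1 : y = ∑ i, y i • (Pi.single i (1 : ℝ) : V n) := by
    funext j
    simp [Finset.sum_apply, Pi.single_apply]
  rw [h1, map_sum]
  simp only [map_smul]
  refine (Finset.sum_eq_zero fun i _ => ?_).trans (by simp)
  have h2 := hc i
  unfold pd at h2
  rw [h2, smul_zero]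

theorem freq_pos {ρ : V n → ℝ} {x : V n} (hx : ρ x = 0)
    (hd : fderiv ℝ ρ x ≠ 0) : ∃ᶠ y in 𝓝 x, 0 < ρ y := by
  intro hc
  have h1 : IsLocalMax ρ x := by
    filter_upwards [hc] with y hy
    rw [hx]
    exact not_lt.1 hy
  exact hd h1.fderiv_eq_zero

theorem eq_of_freq {P : V n → Prop} {x : V n} (hP : ∃ᶠ y in 𝓝 x, P y) {F G : V n → Fin N → ℂ}
    (hF : Continuous F) (hG : Continuous G) (h : ∀ᶠ y in 𝓝 x, P y → F y = G y) : F x = G x := by
  by_contra hne
  have h1 : ∀ᶠ y in 𝓝 x, F y - G y ≠ 0 :=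
    (hF.sub hG).continuousAt.eventually_ne (sub_ne_zero.2 hne)
  obtain ⟨y, hy, hy1, hy2⟩ := (hP.and_eventually (h1.and h)).exists
  exact hy1 (sub_eq_zero.2 (hy2 hy))

theorem key {s : MF n} (hs : SmM s) {ρ : V n → ℝ} (hρ : ContDiff ℝ ∞ ρ) {A : Cn n N}
    (hA : SmU A) (hp : ∀ x, (s x).PosDef) (k : ℕ) {h w : V n → Fin N → ℂ} (hh : ContDiff ℝ ∞ h)
    {B : Set (V n)} (hB : IsOpen B) {x : V n} (hx : x ∈ B) (hx0 : ρ x = 0)
    (hd : fderiv ℝ ρ x ≠ 0) (heq : ∀ y ∈ B, 0 < ρ y → lav s A w y = 0)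
    (hwh : ∀ y ∈ B, w y = ρ y ^ (k + 2) • h y) : h x = 0 := by
  have h1 : Qf s ρ A k h x = 0 := by
    refine eq_of_freq (freq_pos hx0 hd) (F := Qf s ρ A k h) (G := fun _ => 0)
      (contDiff_Qf hs hρ hA k hh).continuous continuous_const ?_
    filter_upwards [hB.mem_nhds hx] with y hy hpos
    have h2 := heq y hy hpos
    rw [lav_congr (v := fun y => ρ y ^ (k + 2) • h y) hB hwh hy, lav_pow hs hρ hA k hh] at h2
    rcases smul_eq_zero.1 h2 with h3 | h3
    · exact absurd h3 (pow_ne_zero _ hpos.ne')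
    · exact h3
  rw [Qf_zero k hx0] at h1
  rcases smul_eq_zero.1 h1 with h3 | h3
  · exfalso
    obtain ⟨i, hi⟩ := pd_ne hd
    have h4 : (fun i => pd i ρ x) ≠ 0 := fun hc => hi (congrFun hc i)
    have h5 := (hp x).dotProduct_mulVec_pos h4
    simp only [star_trivial] at h5
    have h6 : (0 : ℝ) < ((k : ℝ) + 1) * ((k : ℝ) + 2) := by positivity
    exact (mul_pos h6 h5).ne' h3
  · exact h3

theorem vn : RowVN := by
  intro n N ρ hρ hd s A hs hp hA O hO w hw heq h0 χ hχ hsup m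
  induction m generalizing χ with
  | zero => exact ⟨fun x => χ x • w x, hχ.smul hw, fun x => by simp⟩
  | succ m ih =>
    obtain ⟨h, hh, hhe⟩ := ih χ hχ hsup
    have hne : ∀ x, ∃ᶠ y in 𝓝 x, ρ y ≠ 0 := fun x =>
      mem_closure_iff_frequently.1 (B.H641.dense_ne hd x)
    have hz : ∀ x, ρ x = 0 → h x = 0 := by
      intro x hx
      by_cases hxO : x ∈ O
      · match m, ih, hhe with
        | 0, _, hhe =>
          have h1 := hhe x
          rw [(h0 x hxO hx).1] at h1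
          simpa using h1.symm
        | 1, _, hhe =>
          have h1 : (fun x => χ x • w x) = fun x => ρ x • h x := by
            funext y
            simpa using hhe y
          obtain ⟨i, hi⟩ := pd_ne (hd x hx)
          have h2 : pd i (fun x => χ x • w x) x = pd i (fun x => ρ x • h x) x := by rw [h1]
          rw [pd_rsmul hχ hw, pd_rsmul hρ hh, (h0 x hxO hx).1, (h0 x hxO hx).2 i, hx] at h2
          simp only [smul_zero, zero_smul, add_zero] at h2
          rcases smul_eq_zero.1 h2.symm with h3 | h3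
          · exact absurd h3 hi
          · exact h3
        | k + 2, ih, hhe =>
          obtain ⟨r, hr, hrO⟩ := Metric.isOpen_iff.1 hO x hxO
          let ψ : ContDiffBump x := ⟨r / 4, r / 2, by positivity, by linarith⟩
          obtain ⟨g, hg, hge⟩ := ih (fun y => ψ y) ψ.contDiff (by
            have h1 : tsupport (fun y => ψ y) = Metric.closedBall x (r / 2) := ψ.tsupport_eq
            rw [h1]
            exact (Metric.closedBall_subset_ball (by linarith)).trans hrO)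
          have h1 : ∀ y ∈ Metric.ball x (r / 4), w y = ρ y ^ (k + 2) • g y := by
            intro y hy
            have h2 : ψ y = 1 := ψ.one_of_mem_closedBall (Metric.ball_subset_closedBall hy)
            have h3 := hge y
            rw [h2, one_smul] at h3
            exact h3
          have h2 : g x = 0 := key hs hρ hA hp k hg Metric.isOpen_ball
            (Metric.mem_ball_self (by positivity)) hx (hd x hx)
            (fun y hy hpos => heq y (hrO (Metric.ball_subset_ball (by linarith) hy)) hpos) h1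
          have h3 : h x = (fun y => χ y • g y) x := by
            refine eq_of_freq (hne x) hh.continuous (hχ.smul hg).continuous ?_
            filter_upwards [Metric.ball_mem_nhds x (show 0 < r / 4 by positivity)] with y hy hy0
            have h4 := hhe y
            rw [h1 y hy, smul_comm] at h4
            exact (smul_right_injective _ (pow_ne_zero (k + 2) hy0) h4).symm
          rw [h3]
          simp [h2]
      · have hxs : x ∉ tsupport χ := fun hc => hxO (hsup hc)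
        refine eq_of_freq (hne x) (F := h) (G := fun _ => 0) hh.continuous continuous_const ?_
        have h1 : ∀ᶠ y in 𝓝 x, χ y = 0 := by
          have h2 := notMem_tsupport_iff_eventuallyEq.1 hxs
          exact h2
        filter_upwards [h1] with y hy hy0
        have h4 := hhe y
        rw [hy, zero_smul] at h4
        rcases smul_eq_zero.1 h4.symm with h5 | h5
        · exact absurd h5 (pow_ne_zero _ hy0)
        · exact h5
    obtain ⟨g, hg, hge⟩ := hadv hρ hd hh hz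
    refine ⟨g, hg, fun x => ?_⟩
    rw [hhe x, hge x, smul_smul, pow_succ]

end Vale.Agent.P088.LR.P.H231
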